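import Vale.Agent.P207.N4.Dim
import Vale.Agent.P207.N4.H459.Slice

/-!
# P207, line N3, row P1d: the choice of the radius of the discs
-/

set_option linter.unusedSectionVars false

open Set Filter Topology Metric
open scoped ContDiff

noncomputable section

namespace Vale.Agent.P207.N4.H459

open Vale.Agent.P207.N3 Vale.Agent.P207.N3.H459

variable [Dim]

/-- Slice data on a small disc, before the choice of the scale `r₀`. -/
structure Pre (X B V : Type) [TopologicalSpace X] [TopologicalSpace B]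
    [NormedAddCommGroup V] [NormedSpace ℝ V] extends Base X B V where
  ε : ℝ
  ε_pos : 0 < ε
  /-- `A x (s, u)`, the point at time `s` of the geodesic from `em x` through the foot point of
  `exp x (0, u)` -/
  A : X → ℝ × E2 → V
  A_jc : JC A (univ ×ˢ (univ ×ˢ ball 0 ε))
  A_zero : ∀ x, A x 0 = ft x
  A_psi : ∀ x s, ∀ u ∈ ball (0 : E2) ε, A x (s, u) = psi (em x) s (A x (0, u))
  A_der : ∀ x, Function.Bijective (fderiv ℝ (A x) 0)
  A_lev : ∀ x s, ∀ u ∈ ball (0 : E2) ε, ∀ v ∈ ball (0 : E2) ε,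
    A x (s, u) = A x (0, v) → |s| ≤ ‖u‖ + ‖v‖
  cocompact : ∃ K : Set X, IsCompact K ∧ ∀ x, ∃ x' ∈ K, ∃ h h' : V → V, Differentiable ℝ h ∧
    Differentiable ℝ h' ∧ (∀ p, h' (h p) = p) ∧ (∀ p, h (h' p) = p) ∧
    ∀ s, ∀ u ∈ ball (0 : E2) ε, A x (s, u) = h (A x' (s, u))

namespace Pre

variable {X B V : Type} [TopologicalSpace X] [TopologicalSpace B] [CompactSpace B] [T2Space B]
  [NormedAddCommGroup V] [NormedSpace ℝ V] [FiniteDimensional ℝ V]
  (P : Pre X B V)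

/-- uniform injectivity and transversality at one frame -/
def Good (ρ : ℝ) (x : X) : Prop :=
  ρ ≤ P.ε ∧ InjOn (P.A x) (ball (0 : ℝ × E2) ρ) ∧
    ∀ z ∈ ball (0 : ℝ × E2) ρ, Function.Bijective (fderiv ℝ (P.A x) z)

theorem Good.mono {P : Pre X B V} {ρ ρ' : ℝ} {x : X} (h : P.Good ρ x) (h' : ρ' ≤ ρ) :
    P.Good ρ' x :=
  ⟨h'.trans h.1, h.2.1.mono (ball_subset_ball h'), fun z hz => h.2.2 z (ball_subset_ball h' hz)⟩

theorem mem_S (x : X) {z : ℝ × E2} (hz : z.2 ∈ ball (0 : E2) P.ε) :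
    ((x, z) : X × (ℝ × E2)) ∈ (univ ×ˢ (univ ×ˢ ball 0 P.ε) : Set (X × (ℝ × E2))) :=
  ⟨mem_univ _, mem_univ _, hz⟩

theorem snd_mem {ρ : ℝ} (h : ρ ≤ P.ε) {z : ℝ × E2} (hz : z ∈ ball (0 : ℝ × E2) ρ) :
    z.2 ∈ ball (0 : E2) P.ε := by
  rw [mem_ball_zero_iff] at hz ⊢
  exact ((norm_snd_le z).trans_lt hz).trans_le h

theorem exists_good_nhds (hinv : InvThm) (x₀ : X) :
    ∃ N ∈ 𝓝 x₀, ∃ ρ > 0, ∀ x ∈ N, P.Good ρ x := by
  have h0 : (0 : ℝ × E2).2 ∈ ball (0 : E2) P.ε := mem_ball_self P.ε_pos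
  obtain ⟨T, g, h1, h2, h3, h4, h5⟩ := hinv X (ℝ × E2) V P.A _ x₀ 0 P.A_jc
    (P.mem_S x₀ h0) (P.A_der x₀)
  obtain ⟨N, hN, M, hM, hNM⟩ := mem_nhds_prod_iff.1 h5
  obtain ⟨ρ₁, hρ₁, hM'⟩ := Metric.mem_nhds_iff.1 hM
  refine ⟨N, hN, min ρ₁ P.ε, lt_min hρ₁ P.ε_pos, fun x hx => ⟨min_le_right _ _, ?_, ?_⟩⟩
  · intro z hz w hw hzw
    have e1 := (hNM (mk_mem_prod hx (hM' (ball_subset_ball (min_le_left _ _) hz)))).2
    have e2 := (hNM (mk_mem_prod hx (hM' (ball_subset_ball (min_le_left _ _) hw)))).2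
    simp only at e1 e2
    rw [← e1, ← e2, hzw]
  · intro z hz
    have hz2 := P.snd_mem (min_le_right ρ₁ P.ε) hz
    have hT := (hNM (mk_mem_prod hx (hM' (ball_subset_ball (min_le_left _ _) hz)))).1
    simp only at hT
    have hA : DifferentiableAt ℝ (P.A x) z := P.A_jc.differentiableAt (P.mem_S x hz2)
    have hg : DifferentiableAt ℝ (g x) (P.A x z) := h1.differentiableAt hT
    have key : (fun w => g x (P.A x w)) =ᶠ[𝓝 z] fun w => w := by
      filter_upwards [isOpen_ball.mem_nhds hz] with w hw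
      exact (hNM (mk_mem_prod hx (hM' (ball_subset_ball (min_le_left _ _) hw)))).2
    have d1 : HasFDerivAt (fun w => g x (P.A x w))
        ((fderiv ℝ (g x) (P.A x z)).comp (fderiv ℝ (P.A x) z)) z :=
      hg.hasFDerivAt.comp z hA.hasFDerivAt
    have d2 : HasFDerivAt (fun w : ℝ × E2 => w) (ContinuousLinearMap.id ℝ (ℝ × E2)) z :=
      hasFDerivAt_id z
    have d3 := d1.unique (d2.congr_of_eventuallyEq key)
    have hinj : Function.Injective (fderiv ℝ (P.A x) z) := by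
      intro a b hab
      have e1 : fderiv ℝ (g x) (P.A x z) (fderiv ℝ (P.A x) z a) = a :=
        congrArg (fun T : (ℝ × E2) →L[ℝ] (ℝ × E2) => T a) d3
      have e2 : fderiv ℝ (g x) (P.A x z) (fderiv ℝ (P.A x) z b) = b :=
        congrArg (fun T : (ℝ × E2) →L[ℝ] (ℝ × E2) => T b) d3
      rw [← e1, ← e2, hab]
    have hfin : Module.finrank ℝ (ℝ × E2) = Module.finrank ℝ V :=
      (LinearEquiv.ofBijective (fderiv ℝ (P.A x) 0).toLinearMap (P.A_der x)).finrank_eq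
    exact ⟨hinj, (LinearMap.injective_iff_surjective_of_finrank_eq_finrank
      (f := (fderiv ℝ (P.A x) z).toLinearMap) hfin).1 hinj⟩

theorem exists_good (hinv : InvThm) : ∃ ρ > 0, ∀ x, P.Good ρ x := by
  obtain ⟨K, hK, hcov⟩ := P.cocompact
  have h1 : ∃ ρ > 0, ∀ x ∈ K, P.Good ρ x := by
    refine hK.induction_on (p := fun s => ∃ ρ > 0, ∀ x ∈ s, P.Good ρ x)
      ⟨1, one_pos, fun x hx => hx.elim⟩ ?_ ?_ ?_
    · rintro s t hst ⟨ρ, hρ, h⟩
      exact ⟨ρ, hρ, fun x hx => h x (hst hx)⟩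
    · rintro s t ⟨ρ, hρ, h⟩ ⟨ρ', hρ', h'⟩
      refine ⟨min ρ ρ', lt_min hρ hρ', fun x hx => ?_⟩
      rcases hx with hx | hx
      · exact (h x hx).mono (min_le_left _ _)
      · exact (h' x hx).mono (min_le_right _ _)
    · intro x _
      obtain ⟨N, hN, ρ, hρ, h⟩ := P.exists_good_nhds hinv x
      exact ⟨N, mem_nhdsWithin_of_mem_nhds hN, ρ, hρ, h⟩
  obtain ⟨ρ, hρ, h2⟩ := h1
  refine ⟨ρ, hρ, fun x => ?_⟩
  obtain ⟨x', hx', h, h', hd, hd', hl, hr, hA⟩ := hcov x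
  obtain ⟨g1, g2, g3⟩ := h2 x' hx'
  refine ⟨g1, ?_, ?_⟩
  · intro z hz w hw hzw
    have e1 := hA z.1 z.2 (P.snd_mem g1 hz)
    have e2 := hA w.1 w.2 (P.snd_mem g1 hw)
    rw [Prod.mk.eta] at e1 e2
    apply g2 hz hw
    rw [e1, e2] at hzw
    rw [← hl (P.A x' z), ← hl (P.A x' w), hzw]
  · intro z hz
    have hz2 := P.snd_mem g1 hz
    have key : P.A x =ᶠ[𝓝 z] fun w => h (P.A x' w) := by
      filter_upwards [isOpen_ball.mem_nhds hz] with w hw
      have e1 := hA w.1 w.2 (P.snd_mem g1 hw)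
      rwa [Prod.mk.eta] at e1
    have hA' : DifferentiableAt ℝ (P.A x') z := P.A_jc.differentiableAt (P.mem_S x' hz2)
    have d1 : HasFDerivAt (fun w => h (P.A x' w))
        ((fderiv ℝ h (P.A x' z)).comp (fderiv ℝ (P.A x') z)) z :=
      (hd _).hasFDerivAt.comp z hA'.hasFDerivAt
    have d2 := (d1.congr_of_eventuallyEq key).fderiv
    rw [d2, ContinuousLinearMap.coe_comp]
    refine Function.Bijective.comp ?_ (g3 z hz)
    have i1 : (fderiv ℝ h' (h (P.A x' z))).comp (fderiv ℝ h (P.A x' z))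
        = ContinuousLinearMap.id ℝ V := by
      have := (hd' (h (P.A x' z))).hasFDerivAt.comp (P.A x' z) (hd _).hasFDerivAt
      exact this.unique ((hasFDerivAt_id (P.A x' z)).congr_of_eventuallyEq
        (Eventually.of_forall hl))
    have i2 : Function.Injective (fderiv ℝ h (P.A x' z)) := by
      intro a b hab
      have e1 : fderiv ℝ h' (h (P.A x' z)) (fderiv ℝ h (P.A x' z) a) = a :=
        congrArg (fun T : V →L[ℝ] V => T a) i1
      have e2 : fderiv ℝ h' (h (P.A x' z)) (fderiv ℝ h (P.A x' z) b) = b :=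
        congrArg (fun T : V →L[ℝ] V => T b) i1
      rw [← e1, ← e2, hab]
    exact ⟨i2, (LinearMap.injective_iff_surjective
      (f := (fderiv ℝ h (P.A x' z)).toLinearMap)).1 i2⟩

/-- admissible scales -/
structure Small (r₀ : ℝ) : Prop where
  pos : 0 < r₀
  lt : 8 * r₀ < P.ε
  good : ∀ x, P.Good (8 * r₀) x

theorem Small.mono {P : Pre X B V} {r₀ r₁ : ℝ} (h : P.Small r₀) (h0 : 0 < r₁) (h1 : r₁ ≤ r₀) :
    P.Small r₁ :=
  ⟨h0, by linarith [h.lt], fun x => (h.good x).mono (by linarith)⟩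

theorem exists_small (hinv : InvThm) : ∃ r₀, P.Small r₀ := by
  obtain ⟨ρ, hρ, h⟩ := P.exists_good hinv
  refine ⟨min ρ P.ε / 16, by have := lt_min hρ P.ε_pos; positivity, ?_, fun x =>
    (h x).mono ?_⟩
  · have h1 := min_le_right ρ P.ε
    have h2 := P.ε_pos
    linarith
  · have h1 := min_le_left ρ P.ε
    linarith

/-- the scaling -/
def sc (r₀ : ℝ) (z : ℝ × E2) : ℝ × E2 := (z.1, r₀ • z.2)

variable {P}

theorem sc_mem {r₀ : ℝ} (h : P.Small r₀) {u : E2} (hu : u ∈ ball (0 : E2) 4) :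
    r₀ • u ∈ ball (0 : E2) P.ε := by
  rw [mem_ball_zero_iff] at hu ⊢
  rw [norm_smul, Real.norm_eq_abs, abs_of_pos h.pos]
  nlinarith [h.lt, h.pos]

/-- **the slice data at scale `r₀`** -/
def slice {r₀ : ℝ} (h : P.Small r₀) : Slice X B V where
  toBase := P.toBase
  R := 4
  R_gt := by norm_num
  A x z := P.A x (sc r₀ z)
  A_jc := by
    have hS : IsOpen (univ ×ˢ (univ ×ˢ ball 0 4) : Set (X × (ℝ × E2))) :=
      isOpen_univ.prod (isOpen_univ.prod isOpen_ball)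
    have h1 : JC (fun (_ : X) (z : ℝ × E2) => (z.1, r₀ • z.2)) (univ ×ˢ (univ ×ˢ ball 0 4)) :=
      ((JC.id hS).fst).prodMk (((JC.id hS).snd).const_smul r₀)
    exact P.A_jc.comp' h1 fun p hp => ⟨mem_univ _, mem_univ _, sc_mem h hp.2.2⟩
  A_zero x := by
    have : sc r₀ (0 : ℝ × E2) = 0 := by simp [sc]
    rw [this, P.A_zero]
  A_psi x s u hu := by
    simp only [sc]
    exact P.A_psi x s _ (sc_mem h hu)
  A_der x u hu := by
    have hz : ((0 : ℝ), r₀ • u) ∈ ball (0 : ℝ × E2) (8 * r₀) := by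
      rw [mem_ball_zero_iff] at hu ⊢
      rw [Prod.norm_def]
      simp only [norm_zero, norm_smul, Real.norm_eq_abs, abs_of_pos h.pos]
      refine max_lt (by linarith [h.pos]) ?_
      nlinarith [h.pos]
    have h1 := (h.good x).2.2 _ hz
    set S : (ℝ × E2) →L[ℝ] (ℝ × E2) := (ContinuousLinearMap.fst ℝ ℝ E2).prod
      (r₀ • ContinuousLinearMap.snd ℝ ℝ E2) with hS
    have hS' : sc r₀ = S := by
      funext z
      simp [sc, hS]
    have h2 : HasFDerivAt (fun z => P.A x (sc r₀ z))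
        ((fderiv ℝ (P.A x) (0, r₀ • u)).comp S) (0, u) := by
      have h3 : HasFDerivAt (sc r₀) S (0, u) := by
        rw [hS']
        exact S.hasFDerivAt
      have h4 : HasFDerivAt (P.A x) (fderiv ℝ (P.A x) (0, r₀ • u)) (sc r₀ (0, u)) :=
        (P.A_jc.differentiableAt (P.mem_S x (z := (0, r₀ • u)) (sc_mem h hu))).hasFDerivAt
      exact h4.comp (0, u) h3
    rw [h2.fderiv, ContinuousLinearMap.coe_comp]
    refine h1.comp ⟨fun a b hab => ?_, fun b => ⟨(b.1, r₀⁻¹ • b.2), ?_⟩⟩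
    · have e := Prod.ext_iff.1 hab
      simp only [hS, ContinuousLinearMap.prod_apply, ContinuousLinearMap.coe_fst',
        _root_.smul_apply, ContinuousLinearMap.coe_snd'] at e
      exact Prod.ext e.1 (smul_right_injective E2 h.pos.ne' e.2)
    · simp [hS, h.pos.ne']
  A_inj x s u hu v hv huv := by
    simp only [sc] at huv
    have hb : ∀ {w : E2}, w ∈ closedBall (0 : E2) 3 → ‖r₀ • w‖ ≤ 3 * r₀ := fun {w} hw => by
      rw [mem_closedBall_zero_iff] at hw
      rw [norm_smul, Real.norm_eq_abs, abs_of_pos h.pos]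
      nlinarith [h.pos]
    have h4 : closedBall (0 : E2) 3 ⊆ ball 0 4 := closedBall_subset_ball (by norm_num)
    have h1 := P.A_lev x s _ (sc_mem h (h4 hu)) _ (sc_mem h (h4 hv)) huv
    have h2 := hb hu
    have h3 := hb hv
    have hp := h.pos
    have m1 : (s, r₀ • u) ∈ ball (0 : ℝ × E2) (8 * r₀) := by
      rw [mem_ball_zero_iff, Prod.norm_def]
      exact max_lt (by rw [Real.norm_eq_abs]; linarith) (by linarith)
    have m2 : ((0 : ℝ), r₀ • v) ∈ ball (0 : ℝ × E2) (8 * r₀) := by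
      rw [mem_ball_zero_iff, Prod.norm_def]
      exact max_lt (by simp only [norm_zero]; linarith) (by linarith)
    exact smul_right_injective E2 h.pos.ne' (Prod.ext_iff.1 ((h.good x).2.1 m1 m2 huv)).2

end Pre

end Vale.Agent.P207.N4.H459
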